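/-
helper65 — row 211, final assembly of S0324 from its three inputs
(triangle-cylinder cover of the standard tetrahedron, minimal shadow bound, and
the relation between `μH[2]` and `μHE[2]`).  Imports Mathlib only.
-/
import Mathlib

set_option autoImplicit false
open MeasureTheory
open scoped ENNReal

namespace Crest.Agent.Helper65

/-- The standard regular tetrahedron of edge length `2` used in S0324/S0325. -/
noncomputable abbrev Ktet : Set (EuclideanSpace ℝ (Fin 3)) :=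
  convexHull ℝ {!₂[1, 0, 0], !₂[-1, 0, 0], !₂[0, 1, Real.sqrt 2], !₂[0, -1, Real.sqrt 2]}

/-- The normalising constant between `μHE[2]` and `μH[2]`. -/
noncomputable def kappa2 : NNReal :=
  Measure.addHaarScalarFactor (volume : Measure (EuclideanSpace ℝ (Fin 2))) μH[((2 : ℕ) : ℝ)]

theorem kappa2_ne_zero : kappa2 ≠ 0 :=
  Measure.addHaarScalarFactor_volume_hausdorffMeasure_ne_zero 2

theorem kappa2_pos : (0 : ℝ) < (kappa2 : ℝ) :=
  NNReal.coe_pos.mpr (pos_iff_ne_zero.mpr kappa2_ne_zero)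

/-- `μHE[2] = κ₂ • μH[2]` on every (e)metric Borel space. -/
theorem muHE_two_apply {X : Type*} [EMetricSpace X] [MeasurableSpace X] [BorelSpace X]
    (S : Set X) :
    (μHE[2] : Measure X) S = (kappa2 : ℝ≥0∞) * μH[(2 : ℝ)] S := by
  rw [Measure.euclideanHausdorffMeasure_def]
  have h2 : ((2 : ℕ) : ℝ) = 2 := by norm_num
  rw [Measure.smul_apply, ENNReal.smul_def, smul_eq_mul]
  simp only [kappa2, h2]

theorem muHE_two_toReal {X : Type*} [EMetricSpace X] [MeasurableSpace X] [BorelSpace X]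
    (S : Set X) :
    ((μHE[2] : Measure X) S).toReal = (kappa2 : ℝ) * (μH[(2 : ℝ)] S).toReal := by
  rw [muHE_two_apply, ENNReal.toReal_mul]
  rfl

/-- The un-normalised Hausdorff area is the normalised one divided by `κ₂`. -/
theorem muH_two_toReal {X : Type*} [EMetricSpace X] [MeasurableSpace X] [BorelSpace X]
    (S : Set X) :
    (μH[(2 : ℝ)] S).toReal = (kappa2 : ℝ)⁻¹ * ((μHE[2] : Measure X) S).toReal := by
  rw [muHE_two_toReal, ← mul_assoc, inv_mul_cancel₀ kappa2_pos.ne', one_mul]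

/-- **S0324 from a `μHE[2]`-cover and the minimal-shadow bound.** -/
theorem s0324_of_muHE
    (hCover : ∃ (m : ℕ) (u p q r : Fin m → EuclideanSpace ℝ (Fin 3)),
      (∀ i, ‖u i‖ = 1) ∧
      (∀ i, inner ℝ (p i) (u i) = 0 ∧ inner ℝ (q i) (u i) = 0 ∧ inner ℝ (r i) (u i) = 0) ∧
      Ktet ⊆ ⋃ i, {x : EuclideanSpace ℝ (Fin 3) |
        ∃ b ∈ convexHull ℝ {p i, q i, r i}, ∃ t : ℝ, x = b + t • u i} ∧
      ∃ γ : ℝ, 0 < γ ∧
        ∑ i, (μHE[2] (convexHull ℝ {p i, q i, r i})).toReal ≤ Real.sqrt 2 * (1 / 2 - γ))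
    (hShadow : ∀ v : EuclideanSpace ℝ (Fin 3), ‖v‖ = 1 →
      Real.sqrt 2 ≤ (μHE[2] ((fun y => y - inner ℝ y v • v) '' Ktet)).toReal) :
    ∃ (m : ℕ) (u p q r : Fin m → EuclideanSpace ℝ (Fin 3)),
      (∀ i, ‖u i‖ = 1) ∧
      (∀ i, inner ℝ (p i) (u i) = 0 ∧ inner ℝ (q i) (u i) = 0 ∧ inner ℝ (r i) (u i) = 0) ∧
      convexHull ℝ {!₂[1, 0, 0], !₂[-1, 0, 0], !₂[0, 1, Real.sqrt 2], !₂[0, -1, Real.sqrt 2]} ⊆
        ⋃ i, {x : EuclideanSpace ℝ (Fin 3) | ∃ b ∈ convexHull ℝ {p i, q i, r i}, ∃ t : ℝ, x = b + t • u i} ∧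
      ∃ δ : ℝ, 0 < δ ∧ ∀ v : EuclideanSpace ℝ (Fin 3), ‖v‖ = 1 →
        ∑ i, (μH[(2 : ℝ)] (convexHull ℝ {p i, q i, r i})).toReal + δ ≤
          (μH[(2 : ℝ)] ((fun y => y - inner ℝ y v • v) '' convexHull ℝ {!₂[1, 0, 0], !₂[-1, 0, 0], !₂[0, 1, Real.sqrt 2], !₂[0, -1, Real.sqrt 2]})).toReal / 2 := by
  obtain ⟨m, u, p, q, r, hu, hperp, hcov, γ, hγ, hsum⟩ := hCover
  refine ⟨m, u, p, q, r, hu, hperp, hcov, (kappa2 : ℝ)⁻¹ * (Real.sqrt 2 * γ), ?_, ?_⟩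
  · have h2 : (0 : ℝ) < Real.sqrt 2 := Real.sqrt_pos.mpr (by norm_num)
    have := kappa2_pos
    positivity
  · intro v hv
    have hS := hShadow v hv
    have hk : (0 : ℝ) < (kappa2 : ℝ)⁻¹ := inv_pos.mpr kappa2_pos
    simp only [muH_two_toReal]
    rw [← Finset.mul_sum]
    have key : ∑ i, (μHE[2] (convexHull ℝ {p i, q i, r i})).toReal + Real.sqrt 2 * γ ≤
        (μHE[2] ((fun y => y - inner ℝ y v • v) '' Ktet)).toReal / 2 := by
      linarith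
    calc (kappa2 : ℝ)⁻¹ * ∑ i, (μHE[2] (convexHull ℝ {p i, q i, r i})).toReal
          + (kappa2 : ℝ)⁻¹ * (Real.sqrt 2 * γ)
        = (kappa2 : ℝ)⁻¹ * (∑ i, (μHE[2] (convexHull ℝ {p i, q i, r i})).toReal
          + Real.sqrt 2 * γ) := by ring
      _ ≤ (kappa2 : ℝ)⁻¹ * ((μHE[2] ((fun y => y - inner ℝ y v • v) '' Ktet)).toReal / 2) :=
          mul_le_mul_of_nonneg_left key hk.le
      _ = _ := by ring

/-- **S0324 from a cover with Gram areas** (the shape the cover owners deliver):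
`area` is any nonnegative function computing `μHE[2]` of triangles. -/
theorem s0324_of (area : EuclideanSpace ℝ (Fin 3) → EuclideanSpace ℝ (Fin 3) →
      EuclideanSpace ℝ (Fin 3) → ℝ)
    (harea : ∀ p q r : EuclideanSpace ℝ (Fin 3), 0 ≤ area p q r)
    (hTri : ∀ p q r : EuclideanSpace ℝ (Fin 3),
      μHE[2] (convexHull ℝ {p, q, r}) = ENNReal.ofReal (area p q r))
    (hCover : ∃ (m : ℕ) (u p q r : Fin m → EuclideanSpace ℝ (Fin 3)),
      (∀ i, ‖u i‖ = 1) ∧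
      (∀ i, inner ℝ (p i) (u i) = 0 ∧ inner ℝ (q i) (u i) = 0 ∧ inner ℝ (r i) (u i) = 0) ∧
      Ktet ⊆ ⋃ i, {x : EuclideanSpace ℝ (Fin 3) |
        ∃ b ∈ convexHull ℝ {p i, q i, r i}, ∃ t : ℝ, x = b + t • u i} ∧
      ∃ γ : ℝ, 0 < γ ∧ ∑ i, area (p i) (q i) (r i) ≤ Real.sqrt 2 * (1 / 2 - γ))
    (hShadow : ∀ v : EuclideanSpace ℝ (Fin 3), ‖v‖ = 1 →
      Real.sqrt 2 ≤ (μHE[2] ((fun y => y - inner ℝ y v • v) '' Ktet)).toReal) :
    ∃ (m : ℕ) (u p q r : Fin m → EuclideanSpace ℝ (Fin 3)),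
      (∀ i, ‖u i‖ = 1) ∧
      (∀ i, inner ℝ (p i) (u i) = 0 ∧ inner ℝ (q i) (u i) = 0 ∧ inner ℝ (r i) (u i) = 0) ∧
      convexHull ℝ {!₂[1, 0, 0], !₂[-1, 0, 0], !₂[0, 1, Real.sqrt 2], !₂[0, -1, Real.sqrt 2]} ⊆
        ⋃ i, {x : EuclideanSpace ℝ (Fin 3) | ∃ b ∈ convexHull ℝ {p i, q i, r i}, ∃ t : ℝ, x = b + t • u i} ∧
      ∃ δ : ℝ, 0 < δ ∧ ∀ v : EuclideanSpace ℝ (Fin 3), ‖v‖ = 1 →
        ∑ i, (μH[(2 : ℝ)] (convexHull ℝ {p i, q i, r i})).toReal + δ ≤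
          (μH[(2 : ℝ)] ((fun y => y - inner ℝ y v • v) '' convexHull ℝ {!₂[1, 0, 0], !₂[-1, 0, 0], !₂[0, 1, Real.sqrt 2], !₂[0, -1, Real.sqrt 2]})).toReal / 2 := by
  apply s0324_of_muHE _ hShadow
  obtain ⟨m, u, p, q, r, hu, hperp, hcov, γ, hγ, hsum⟩ := hCover
  refine ⟨m, u, p, q, r, hu, hperp, hcov, γ, hγ, le_trans (le_of_eq ?_) hsum⟩
  refine Finset.sum_congr rfl fun i _ => ?_
  rw [hTri, ENNReal.toReal_ofReal (harea _ _ _)]

end Crest.Agent.Helper65
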